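import Vale.Agent.P210.R2.H401.CSpec

open Set Metric

noncomputable section

namespace Vale.Agent.P210.R2.H285

open Vale.Agent.P210.R2.H401

/-- number of points of a separated set -/
theorem card_sep {n : ℕ} {S : Sp} (h : Ax n S) {a : ℝ} (y : S.X) (s t : ℝ) (hs : 0 < s)
    (hst : s ≤ t) (hta : t ≤ a * s) (hK : S.K * t ^ 2 ≤ 1) (Z : Finset S.X)
    (h1 : ∀ z ∈ Z, dist z y ≤ t) (h2 : ∀ z ∈ Z, ∀ z' ∈ Z, z ≠ z' → s ≤ dist z z') :
    (Z.card : ℝ) ≤ (6 * a) ^ n * Real.exp 9 := by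
  have ht : 0 < t := lt_of_lt_of_le hs hst
  have hv : 0 < S.V y (t + s / 2) := h.pos _ _ (by linarith)
  have hp : ∑ z ∈ Z, S.V z (s / 2) ≤ S.V y (t + s / 2) :=
    h.pack Z y (s / 2) (t + s / 2) (fun z hz => by linarith [h1 z hz])
      (fun z hz z' hz' hne => by linarith [h2 z hz z' hz' hne])
  have hb : ∀ z ∈ Z, S.V y (t + s / 2) ≤ ((6 * a) ^ n * Real.exp 9) * S.V z (s / 2) := by
    intro z hz
    have e1 : S.V y (t + s / 2) ≤ S.V z (3 * t) :=
      h.sub y z _ _ (by rw [dist_comm]; linarith [h1 z hz])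
    have e2 : S.V z (3 * t) ≤ (3 * t / (s / 2)) ^ n * Real.exp (S.K * (3 * t) ^ 2) *
        S.V z (s / 2) := h.bg z (s / 2) (3 * t) (by linarith) (by linarith)
    have hpz : 0 < S.V z (s / 2) := h.pos _ _ (by linarith)
    have e3 : 3 * t / (s / 2) ≤ 6 * a := by
      rw [div_le_iff₀ (by linarith)]
      nlinarith
    have e4 : (3 * t / (s / 2)) ^ n ≤ (6 * a) ^ n := pow_le_pow_left₀ (by positivity) e3 n
    have e5 : Real.exp (S.K * (3 * t) ^ 2) ≤ Real.exp 9 := Real.exp_le_exp.2 (by nlinarith)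
    refine e1.trans (e2.trans (mul_le_mul_of_nonneg_right ?_ hpz.le))
    exact mul_le_mul e4 e5 (Real.exp_pos _).le (le_trans (by positivity) e4)
  have hsum : (Z.card : ℝ) * S.V y (t + s / 2) ≤
      ((6 * a) ^ n * Real.exp 9) * S.V y (t + s / 2) := by
    calc (Z.card : ℝ) * S.V y (t + s / 2) = ∑ z ∈ Z, S.V y (t + s / 2) := by
          rw [Finset.sum_const, nsmul_eq_mul]
      _ ≤ ∑ z ∈ Z, ((6 * a) ^ n * Real.exp 9) * S.V z (s / 2) := Finset.sum_le_sum hb
      _ = ((6 * a) ^ n * Real.exp 9) * ∑ z ∈ Z, S.V z (s / 2) := by rw [Finset.mul_sum]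
      _ ≤ _ := by
          have ha : 0 ≤ a := by
            by_contra hneg
            push Not at hneg
            nlinarith
          exact mul_le_mul_of_nonneg_left hp (by positivity)
  exact le_of_mul_le_mul_right hsum hv

/-- a maximal separated set -/
theorem exists_max_sep {X : Type*} [MetricSpace X] (A : Set X) (s : ℝ) (hs : 0 < s) (N : ℕ)
    (hN : ∀ Z : Finset X, (∀ z ∈ Z, z ∈ A) → (∀ z ∈ Z, ∀ z' ∈ Z, z ≠ z' → s ≤ dist z z') →
      Z.card ≤ N) :
    ∃ F : Finset X, F.card ≤ N ∧ A ⊆ ⋃ c ∈ F, closedBall c s := by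
  classical
  let P : ℕ → Prop := fun k => ∃ Z : Finset X, Z.card = k ∧ (∀ z ∈ Z, z ∈ A) ∧
    ∀ z ∈ Z, ∀ z' ∈ Z, z ≠ z' → s ≤ dist z z'
  have hP0 : P 0 := ⟨∅, by simp, by simp, by simp⟩
  have hbd : ∀ k, P k → k ≤ N := by
    rintro k ⟨Z, rfl, h1, h2⟩
    exact hN Z h1 h2
  have hg : P (Nat.findGreatest P N) := Nat.findGreatest_spec (Nat.zero_le N) hP0
  obtain ⟨Z, hc, h1, h2⟩ := hg
  refine ⟨Z, hN Z h1 h2, fun x hx => ?_⟩
  by_contra hcon
  simp only [mem_iUnion, mem_closedBall, not_exists, not_le] at hcon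
  have hxZ : x ∉ Z := fun hxZ => by
    have h3 := hcon x hxZ
    rw [dist_self] at h3
    linarith
  have hP' : P (Z.card + 1) := by
    refine ⟨insert x Z, Finset.card_insert_of_notMem hxZ, ?_, ?_⟩
    · intro z hz
      rcases Finset.mem_insert.1 hz with rfl | hz
      · exact hx
      · exact h1 z hz
    · intro z hz z' hz' hne
      rcases Finset.mem_insert.1 hz with e1 | hz1
      · rcases Finset.mem_insert.1 hz' with e2 | hz2
        · exact absurd (e1.trans e2.symm) hne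
        · rw [e1]; exact (hcon z' hz2).le
      · rcases Finset.mem_insert.1 hz' with e2 | hz2
        · rw [e2, dist_comm]; exact (hcon z hz1).le
        · exact h2 z hz1 z' hz2 hne
  have := Nat.le_findGreatest (hbd _ hP') hP'
  omega

/-- row RC-COVER -/
theorem cover : Stmt.COVER := by
  intro n a
  refine ⟨max 1 ⌈(6 * a) ^ n * Real.exp 9⌉₊, le_max_left _ _, ?_⟩
  intro S h y s t hs hst hta hK
  have key : ∀ Z : Finset S.X, (∀ z ∈ Z, dist z y ≤ t) →
      (∀ z ∈ Z, ∀ z' ∈ Z, z ≠ z' → s ≤ dist z z') →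
      Z.card ≤ max 1 ⌈(6 * a) ^ n * Real.exp 9⌉₊ := by
    intro Z h1 h2
    refine le_trans ?_ (le_max_right _ _)
    exact_mod_cast (card_sep h y s t hs hst hta hK Z h1 h2).trans (Nat.le_ceil _)
  refine ⟨key, fun A hA => ?_⟩
  exact exists_max_sep A s hs _ fun Z hZ1 hZ2 =>
    key Z (fun z hz => mem_closedBall.1 (hA (hZ1 z hz))) hZ2

end Vale.Agent.P210.R2.H285
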